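import Vale.Agent.Cyl.Space

open MeasureTheory Set
open scoped Pointwise ENNReal

namespace Vale.Agent.Cyl

/-- area of the level set -/
noncomputable def ar (K : Set ((ℝ × ℝ) × ℝ)) (t : ℝ) : ℝ := (volume (lev K t)).toReal

/-- comparison profile: areas of the sections of a cone with base area `d` and height `m` -/
noncomputable def prof (d m t : ℝ) : ℝ := d * (max (1 - t / m) 0) ^ 2

lemma ar_nonneg (K : Set ((ℝ × ℝ) × ℝ)) (t : ℝ) : 0 ≤ ar K t := ENNReal.toReal_nonneg

lemma prof_cont (d m : ℝ) : Continuous (prof d m) := by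
  unfold prof
  fun_prop

lemma prof_nonneg {d m : ℝ} (hd : 0 ≤ d) (t : ℝ) : 0 ≤ prof d m t := by
  unfold prof
  positivity

lemma ofReal_ar {K : Set ((ℝ × ℝ) × ℝ)} (hKc : IsCompact K) (t : ℝ) :
    ENNReal.ofReal (ar K t) = volume (lev K t) :=
  ENNReal.ofReal_toReal (lev_compact hKc t).measure_lt_top.ne

/-- Brunn-Minkowski between the base and a level set -/
lemma ar_bm {K : Set ((ℝ × ℝ) × ℝ)} (hK : Convex ℝ K) (hKc : IsCompact K) {t l : ℝ}
    (hl : 0 ≤ l) (hl1 : l ≤ 1) (hne : (lev K t).Nonempty) (hne0 : (lev K 0).Nonempty) :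
    (1 - l) * √(ar K 0) + l * √(ar K t) ≤ √(ar K (l * t)) := by
  apply Real.le_sqrt_of_sq_le
  exact brunn_minkowski_plane (lev_convex hK 0) (lev_convex hK t) (lev_compact hKc 0)
    (lev_compact hKc t) (lev_compact hKc (l * t)) hne0 hne (by linarith) hl
    (fun x hx y hy => by
      have := lev_combo hK (by linarith : (0:ℝ) ≤ 1 - l) hl (by ring) hx hy
      simpa using this)

lemma lintegral_prof_tail {d m s : ℝ} (hd : 0 ≤ d) (hm : 0 < m) (hsm : s ≤ m) :
    ∫⁻ t in Ioi s, ENNReal.ofReal (prof d m t)
      = ENNReal.ofReal (d * m / 3 * (1 - s / m) ^ 3) := by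
  have h1 : ∫⁻ t in Ioi s, ENNReal.ofReal (prof d m t)
      = ∫⁻ t in Ioc s m, ENNReal.ofReal (prof d m t) := by
    rw [← Ioc_union_Ioi_eq_Ioi hsm, lintegral_union measurableSet_Ioi
      (Ioc_disjoint_Ioi le_rfl)]
    have : ∫⁻ t in Ioi m, ENNReal.ofReal (prof d m t) = 0 := by
      rw [setLIntegral_congr_fun (g := fun _ => 0) measurableSet_Ioi]
      · simp
      · intro t ht
        have ht' : m < t := ht
        have : 1 - t / m ≤ 0 := by
          rw [sub_nonpos, le_div_iff₀ hm]; linarith
        simp [prof, max_eq_right this]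
    rw [this, add_zero]
  rw [h1]
  have h2 : ∫ t in s..m, d * (1 - t / m) ^ 2 = d * m / 3 * (1 - s / m) ^ 3 := by
    have hderiv : ∀ t ∈ uIcc s m, HasDerivAt (fun t => - (d * m / 3 * (1 - t / m) ^ 3))
        (d * (1 - t / m) ^ 2) t := by
      intro t _
      have h' : HasDerivAt (fun t : ℝ => 1 - t / m) (-(1 / m)) t := by
        simpa using ((hasDerivAt_id t).div_const m).const_sub 1
      have h2 := ((h'.pow 3).const_mul (d * m / 3)).neg
      refine h2.congr_deriv ?_
      push_cast
      field_simp
    rw [intervalIntegral.integral_eq_sub_of_hasDerivAt hderiv]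
    · have : m / m = 1 := div_self hm.ne'
      simp [this]
    · apply Continuous.intervalIntegrable
      fun_prop
  rw [← h2, intervalIntegral.integral_of_le hsm, ofReal_integral_eq_lintegral_ofReal]
  · apply setLIntegral_congr_fun measurableSet_Ioc
    intro t ht
    have : 0 ≤ 1 - t / m := by
      rw [sub_nonneg, div_le_one hm]; exact ht.2
    simp [prof, max_eq_left this]
  · have : Continuous (fun t : ℝ => d * (1 - t / m) ^ 2) := by fun_prop
    exact this.integrableOn_Ioc
  · exact Filter.Eventually.of_forall fun t => by positivity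

/-- single-crossing comparison with a cone of the same base and the same volume -/
lemma tail_le {K : Set ((ℝ × ℝ) × ℝ)} (hK : Convex ℝ K) (hKc : IsCompact K)
    (hD : 0 < ar K 0) {m : ℝ} (hm : 0 < m) (hV : volume K = ENNReal.ofReal (ar K 0 * m / 3))
    {s : ℝ} (hs : 0 ≤ s) :
    ∫⁻ t in Ioi s, volume (lev K t) ≤ ∫⁻ t in Ioi s, ENNReal.ofReal (prof (ar K 0) m t) := by
  have hne0 : (lev K 0).Nonempty := by
    by_contra hne
    rw [not_nonempty_iff_eq_empty] at hne
    simp [ar, hne] at hD
  have htot : ∫⁻ t in Ioi (0:ℝ), volume (lev K t)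
      = ∫⁻ t in Ioi (0:ℝ), ENNReal.ofReal (prof (ar K 0) m t) := by
    rw [← volume_total hK hKc, hV, lintegral_prof_tail hD.le hm hm.le]
    simp
  rcases hs.eq_or_lt with rfl | hs
  · exact htot.le
  set d := ar K 0 with hd
  have hsd : 0 < √d := Real.sqrt_pos.2 hD
  -- square root of the profile
  by_cases hcross : ar K s ≤ prof d m s
  · -- beyond the crossing
    apply setLIntegral_mono' measurableSet_Ioi
    intro t ht
    have hst : s < t := ht
    rw [← ofReal_ar hKc]
    apply ENNReal.ofReal_le_ofReal
    by_cases hne : (lev K t).Nonempty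
    · have hbm := ar_bm hK hKc (t := t) (l := s / t) (div_nonneg hs.le (by linarith))
        (by rw [div_le_one (by linarith)]; linarith) hne hne0
      have htp : 0 < t := by linarith
      rw [div_mul_cancel₀ _ htp.ne'] at hbm
      have h1 : √(ar K s) ≤ √d * max (1 - s / m) 0 := by
        apply Real.sqrt_le_iff.2
        refine ⟨by positivity, ?_⟩
        rw [mul_pow, Real.sq_sqrt hD.le]
        exact hcross
      -- conclude
      have h2 : √(ar K t) ≤ √d * (1 - t / m) := by
        have h3 : (1 - s / t) * √d + s / t * √(ar K t) ≤ √d * max (1 - s / m) 0 := hbm.trans h1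
        have h4 : 0 < s / t := by positivity
        have h5 : 0 < 1 - s / t := by
          rw [sub_pos, div_lt_one htp]; exact hst
        rcases le_total (1 - s / m) 0 with h6 | h6
        · rw [max_eq_right h6, mul_zero] at h3
          have : 0 < (1 - s / t) * √d := by positivity
          have : 0 ≤ s / t * √(ar K t) := by positivity
          linarith
        · rw [max_eq_left h6] at h3
          have h7 : s / t * √(ar K t) ≤ s / t * (√d * (1 - t / m)) := by
            have h8 : √d * (1 - s / m) - (1 - s / t) * √d = s / t * (√d * (1 - t / m)) := by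
              field_simp
              ring
            linarith
          exact le_of_mul_le_mul_left h7 h4
      have h9 : 0 ≤ 1 - t / m := by
        by_contra hcon
        push Not at hcon
        have : √d * (1 - t / m) < 0 := mul_neg_of_pos_of_neg hsd hcon
        linarith [Real.sqrt_nonneg (ar K t)]
      rw [prof, max_eq_left h9]
      calc ar K t = √(ar K t) ^ 2 := (Real.sq_sqrt (ar_nonneg K t)).symm
        _ ≤ (√d * (1 - t / m)) ^ 2 := by gcongr
        _ = d * (1 - t / m) ^ 2 := by rw [mul_pow, Real.sq_sqrt hD.le]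
    · rw [not_nonempty_iff_eq_empty] at hne
      have : ar K t = 0 := by simp [ar, hne]
      rw [this]
      exact prof_nonneg hD.le t
  · -- before the crossing
    push Not at hcross
    have hne : (lev K s).Nonempty := by
      by_contra hne
      rw [not_nonempty_iff_eq_empty] at hne
      have : ar K s = 0 := by simp [ar, hne]
      rw [this] at hcross
      exact absurd (prof_nonneg hD.le s) (not_le.2 hcross)
    have hge : ∫⁻ t in Ioc 0 s, ENNReal.ofReal (prof d m t) ≤ ∫⁻ t in Ioc 0 s, volume (lev K t) := by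
      apply setLIntegral_mono' measurableSet_Ioc
      intro t ht
      rw [← ofReal_ar hKc]
      apply ENNReal.ofReal_le_ofReal
      have hbm := ar_bm hK hKc (t := s) (l := t / s) (div_nonneg ht.1.le hs.le)
        (by rw [div_le_one hs]; exact ht.2) hne hne0
      rw [div_mul_cancel₀ _ hs.ne'] at hbm
      have h1 : √d * max (1 - s / m) 0 ≤ √(ar K s) := by
        apply Real.le_sqrt_of_sq_le
        rw [mul_pow, Real.sq_sqrt hD.le]
        exact hcross.le
      have h2 : √d * (1 - s / m) ≤ √(ar K s) :=
        (mul_le_mul_of_nonneg_left (le_max_left _ _) hsd.le).trans h1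
      have h3 : √d * (1 - t / m) ≤ √(ar K t) := by
        have h4 : (1 - t / s) * √d + t / s * (√d * (1 - s / m)) = √d * (1 - t / m) := by
          field_simp
          ring
        have h5 : 0 ≤ t / s := div_nonneg ht.1.le hs.le
        have := mul_le_mul_of_nonneg_left h2 h5
        linarith
      have h6 : √d * max (1 - t / m) 0 ≤ √(ar K t) := by
        rcases le_total (1 - t / m) 0 with h7 | h7
        · rw [max_eq_right h7, mul_zero]; exact Real.sqrt_nonneg _
        · rw [max_eq_left h7]; exact h3
      calc prof d m t = (√d * max (1 - t / m) 0) ^ 2 := by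
            rw [prof, mul_pow, Real.sq_sqrt hD.le]
        _ ≤ √(ar K t) ^ 2 := by gcongr
        _ = ar K t := Real.sq_sqrt (ar_nonneg K t)
    rw [← Ioc_union_Ioi_eq_Ioi hs.le, lintegral_union measurableSet_Ioi (Ioc_disjoint_Ioi le_rfl),
      lintegral_union measurableSet_Ioi (Ioc_disjoint_Ioi le_rfl)] at htot
    have hfin : ∫⁻ t in Ioc 0 s, ENNReal.ofReal (prof d m t) ≠ ∞ := by
      have hle := lintegral_mono_set (μ := volume) (f := fun t => ENNReal.ofReal (prof d m t))
        (Ioc_subset_Ioi_self : Ioc 0 s ⊆ Ioi 0)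
      apply ne_top_of_le_ne_top _ hle
      rw [lintegral_prof_tail hD.le hm hm.le]
      exact ENNReal.ofReal_ne_top
    have h5 : (∫⁻ t in Ioc 0 s, ENNReal.ofReal (prof d m t)) + ∫⁻ t in Ioi s, volume (lev K t) ≤
        (∫⁻ t in Ioc 0 s, ENNReal.ofReal (prof d m t))
          + ∫⁻ t in Ioi s, ENNReal.ofReal (prof d m t) := by
      rw [← htot]
      gcongr
    exact (ENNReal.add_le_add_iff_left hfin).1 h5

/-- the part of a convex body above a base `B` (upright cylinder) has relative volume at most
`3 (1 - h) t + h ^ 3`, where `t` is the relative area of `B` -/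
theorem cyl_bound {K : Set ((ℝ × ℝ) × ℝ)} (hK : Convex ℝ K) (hKc : IsCompact K)
    (hV0 : volume K ≠ 0) {B : Set (ℝ × ℝ)} (hBt : volume B ≠ ∞) {h : ℝ} (h0 : 0 ≤ h) (h1 : h ≤ 1) :
    (volume (K ∩ Prod.fst ⁻¹' B)).toReal ≤
      (3 * (1 - h) * ((volume B).toReal / (volume (Prod.fst '' K)).toReal) + h ^ 3)
        * (volume K).toReal := by
  wlog hB : MeasurableSet B generalizing B
  · have h := this (B := toMeasurable volume B) (by rwa [measure_toMeasurable])
      (measurableSet_toMeasurable _ _)
    rw [measure_toMeasurable] at h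
    refine le_trans ?_ h
    apply ENNReal.toReal_mono (ne_top_of_le_ne_top hKc.measure_lt_top.ne
      (measure_mono inter_subset_left))
    exact measure_mono (inter_subset_inter_right _ (preimage_mono (subset_toMeasurable _ _)))
  have hVt : volume K ≠ ∞ := hKc.measure_lt_top.ne
  have hV : 0 < (volume K).toReal := ENNReal.toReal_pos hV0 hVt
  have hD : 0 < ar K 0 := by
    by_contra hcon
    have h0' : volume (lev K 0) = 0 := by
      rw [← ofReal_ar hKc, le_antisymm (not_lt.1 hcon) (ar_nonneg K 0), ENNReal.ofReal_zero]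
    apply hV0
    rw [volume_total hK hKc, setLIntegral_congr_fun (g := fun _ => 0) measurableSet_Ioi]
    · simp
    · intro t ht
      exact measure_mono_null (lev_anti (le_of_lt ht)) h0'
  set d := ar K 0 with hd
  have hdeq : (volume (Prod.fst '' K)).toReal = d := by rw [← lev_zero]; rfl
  set m := 3 * (volume K).toReal / d with hm
  have hmp : 0 < m := by positivity
  have hVm : volume K = ENNReal.ofReal (ar K 0 * m / 3) := by
    rw [← ENNReal.ofReal_toReal hVt]
    congr 1
    rw [hm, ← hd]
    field_simp
  set s := (1 - h) * m with hs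
  have hs0 : 0 ≤ s := mul_nonneg (by linarith) hmp.le
  have hsm : s ≤ m := by rw [hs]; nlinarith
  have hmain : volume (K ∩ Prod.fst ⁻¹' B) ≤
      ENNReal.ofReal (s * (volume B).toReal + h ^ 3 * (volume K).toReal) := by
    rw [volume_part hK hKc hB, ← Ioc_union_Ioi_eq_Ioi hs0,
      lintegral_union measurableSet_Ioi (Ioc_disjoint_Ioi le_rfl), ENNReal.ofReal_add
      (by positivity) (by positivity)]
    gcongr
    · calc ∫⁻ t in Ioc 0 s, volume (lev K t ∩ B) ≤ ∫⁻ _ in Ioc 0 s, volume B :=
            lintegral_mono fun t => measure_mono inter_subset_right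
        _ = ENNReal.ofReal (s * (volume B).toReal) := by
            rw [setLIntegral_const, Real.volume_Ioc, sub_zero, mul_comm, ENNReal.ofReal_mul hs0,
              ENNReal.ofReal_toReal hBt]
    · calc ∫⁻ t in Ioi s, volume (lev K t ∩ B) ≤ ∫⁻ t in Ioi s, volume (lev K t) :=
            lintegral_mono fun t => measure_mono inter_subset_left
        _ ≤ ∫⁻ t in Ioi s, ENNReal.ofReal (prof d m t) := tail_le hK hKc hD hmp hVm hs0
        _ = ENNReal.ofReal (d * m / 3 * (1 - s / m) ^ 3) := lintegral_prof_tail hD.le hmp hsm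
        _ = ENNReal.ofReal (h ^ 3 * (volume K).toReal) := by
            congr 1
            rw [hs, mul_div_cancel_right₀ _ hmp.ne', hm]
            field_simp
            ring
  have h3 := ENNReal.toReal_mono ENNReal.ofReal_ne_top hmain
  rw [ENNReal.toReal_ofReal (by positivity)] at h3
  refine h3.trans (le_of_eq ?_)
  rw [hdeq, hs, hm]
  field_simp

end Vale.Agent.Cyl
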