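import Mathlib

namespace Vale.Agent.Cyl

/-- Euclidean three-space. -/
abbrev E3 := EuclideanSpace ℝ (Fin 3)

/-- The set `B + ℝ u`. -/
def cylinder (B : Set E3) (u : E3) : Set E3 := {x | ∃ b ∈ B, ∃ t : ℝ, x = b + t • u}

/-- For a unit vector `u`: the image of `K` under the orthogonal projection
`x ↦ x - ⟨u, x⟩ u` onto the plane orthogonal to `u`. -/
def shadow (u : E3) (K : Set E3) : Set E3 := (fun x => x - (inner ℝ u x) • u) '' K

end Vale.Agent.Cyl
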