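import Vale.Agent.Cyl.Bound
import Vale.Agent.Cyl.Defs

open MeasureTheory Set
open scoped Pointwise ENNReal

namespace Vale.Agent.Cyl

/-- an orthonormal basis whose last vector is a given unit vector -/
lemma exists_basis (u : E3) (hu : ‖u‖ = 1) : ∃ b : OrthonormalBasis (Fin 3) ℝ E3, b 2 = u := by
  have h := Orthonormal.exists_orthonormalBasis_extension_of_card_eq (𝕜 := ℝ) (E := E3)
    (ι := Fin 3) (by simp) (v := fun _ => u) (s := {2}) (by
      rw [orthonormal_iff_ite]
      rintro ⟨i, hi⟩ ⟨j, hj⟩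
      simp only [mem_singleton_iff] at hi hj
      subst hi; subst hj
      simp [hu])
  obtain ⟨b, hb⟩ := h
  exact ⟨b, hb 2 rfl⟩

/-- coordinates in an orthonormal basis, as `((x, y), z)` -/
noncomputable def coord (b : OrthonormalBasis (Fin 3) ℝ E3) : E3 ≃ᵐ (ℝ × ℝ) × ℝ :=
  b.measurableEquiv.trans <|
  (MeasurableEquiv.toLp 2 (Fin 3 → ℝ)).symm.trans <|
  (MeasurableEquiv.piFinSuccAbove (fun _ => ℝ) 2).trans <|
  MeasurableEquiv.prodComm.trans <|
  MeasurableEquiv.prodCongr (MeasurableEquiv.finTwoArrow) (MeasurableEquiv.refl ℝ)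

lemma coord_apply (b : OrthonormalBasis (Fin 3) ℝ E3) (x : E3) :
    coord b x = ((b.repr x 0, b.repr x 1), b.repr x 2) := rfl

lemma coord_mp (b : OrthonormalBasis (Fin 3) ℝ E3) : MeasurePreserving (coord b) := by
  refine (b.measurePreserving_measurableEquiv).trans ?_
  refine (PiLp.volume_preserving_ofLp (Fin 3)).trans ?_
  refine (volume_preserving_piFinSuccAbove (fun _ => ℝ) 2).trans ?_
  refine (Measure.measurePreserving_swap).trans ?_
  exact (volume_preserving_finTwoArrow ℝ).prod (MeasurePreserving.id _)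

lemma volume_coord_image (b : OrthonormalBasis (Fin 3) ℝ E3) (S : Set E3) :
    volume (coord b '' S) = volume S := by
  rw [MeasurableEquiv.image_eq_preimage_symm]
  exact ((coord_mp b).symm).measure_preimage_equiv S

lemma repr_combo (b : OrthonormalBasis (Fin 3) ℝ E3) (x : E3) :
    x = b.repr x 0 • b 0 + b.repr x 1 • b 1 + b.repr x 2 • b 2 := by
  conv_lhs => rw [← b.sum_repr x]
  rw [Fin.sum_univ_three]

/-- the inclusion of the coordinate plane spanned by `b 0, b 1` -/
noncomputable def plane (b : OrthonormalBasis (Fin 3) ℝ E3) (p : ℝ × ℝ) : E3 :=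
  p.1 • b 0 + p.2 • b 1

/-- the same with the Euclidean norm on the source -/
noncomputable def planeLin (b : OrthonormalBasis (Fin 3) ℝ E3) :
    EuclideanSpace ℝ (Fin 2) →ₗ[ℝ] E3 where
  toFun v := v 0 • b 0 + v 1 • b 1
  map_add' v w := by simp only [PiLp.add_apply, add_smul]; abel
  map_smul' c v := by simp only [PiLp.smul_apply, smul_eq_mul, RingHom.id_apply, smul_add, mul_smul]

lemma planeLin_isometry (b : OrthonormalBasis (Fin 3) ℝ E3) : Isometry (planeLin b) := by
  apply AddMonoidHomClass.isometry_of_norm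
  intro v
  have h01 : inner ℝ (b 0) (b 1) = 0 := b.orthonormal.2 (by decide)
  have h0 : ‖b 0‖ = 1 := b.orthonormal.1 0
  have h1 : ‖b 1‖ = 1 := b.orthonormal.1 1
  have : ‖planeLin b v‖ ^ 2 = ‖v‖ ^ 2 := by
    have e : planeLin b v = v 0 • b 0 + v 1 • b 1 := rfl
    rw [e, norm_add_sq_real, inner_smul_left, inner_smul_right, h01, norm_smul, norm_smul, h0, h1,
      EuclideanSpace.norm_sq_eq, Fin.sum_univ_two]
    simp
  exact (pow_left_inj₀ (norm_nonneg _) (norm_nonneg _) two_ne_zero).1 this

lemma plane_area (b : OrthonormalBasis (Fin 3) ℝ E3) (S : Set (ℝ × ℝ)) :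
    μHE[2] (plane b '' S) = volume S := by
  set e : EuclideanSpace ℝ (Fin 2) ≃ᵐ ℝ × ℝ :=
    (MeasurableEquiv.toLp 2 (Fin 2 → ℝ)).symm.trans MeasurableEquiv.finTwoArrow with he
  have hmp : MeasurePreserving e :=
    (PiLp.volume_preserving_ofLp (Fin 2)).trans (volume_preserving_finTwoArrow ℝ)
  have h1 : plane b '' S = planeLin b '' (e ⁻¹' S) := by
    ext x
    constructor
    · rintro ⟨p, hp, rfl⟩
      refine ⟨e.symm p, ?_, ?_⟩
      · simpa using hp
      · rfl
    · rintro ⟨v, hv, rfl⟩
      exact ⟨e v, hv, rfl⟩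
  rw [h1, (planeLin_isometry b).euclideanHausdorffMeasure_image,
    EuclideanSpace.euclideanHausdorffMeasure_eq_volume, hmp.measure_preimage_equiv]

/-- the linear coordinate map -/
noncomputable def coordLin (b : OrthonormalBasis (Fin 3) ℝ E3) : E3 →ₗ[ℝ] (ℝ × ℝ) × ℝ where
  toFun x := ((b.repr x 0, b.repr x 1), b.repr x 2)
  map_add' x y := by simp
  map_smul' c x := by simp

lemma coord_image_eq (b : OrthonormalBasis (Fin 3) ℝ E3) (S : Set E3) :
    coord b '' S = coordLin b '' S := rfl

lemma repr_plane (b : OrthonormalBasis (Fin 3) ℝ E3) (x y z : ℝ) (i : Fin 3) :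
    b.repr (x • b 0 + y • b 1 + z • b 2) i = ![x, y, z] i := by
  rw [map_add, map_add, map_smul, map_smul, map_smul, b.repr_self, b.repr_self, b.repr_self]
  fin_cases i <;> simp

/-- key estimate for one axis direction -/
theorem cylinder_bound {K : Set E3} (hK : Convex ℝ K) (hKc : IsCompact K)
    (hKi : (interior K).Nonempty) {u : E3} (hu : ‖u‖ = 1) {B : Set E3}
    (hB : ∀ x ∈ B, inner ℝ u x = 0) (hBt : μHE[2] B ≠ ∞) {h : ℝ} (h0 : 0 ≤ h) (h1 : h ≤ 1) :
    (volume (K ∩ cylinder B u)).toReal ≤
      (3 * (1 - h) * ((μHE[2] B).toReal / (μHE[2] (shadow u K)).toReal) + h ^ 3)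
        * (volume K).toReal := by
  obtain ⟨b, hb⟩ := exists_basis u hu
  have hin : ∀ x, inner ℝ u x = b.repr x 2 := by
    intro x
    rw [b.repr_apply_apply, hb]
  -- the body in coordinates
  have hK' : Convex ℝ (coord b '' K) := by
    rw [coord_image_eq]; exact hK.linear_image _
  have hKc' : IsCompact (coord b '' K) := by
    rw [coord_image_eq]
    exact hKc.image (LinearMap.continuous_of_finiteDimensional _)
  have hV : volume (coord b '' K) ≠ 0 := by
    rw [volume_coord_image]
    exact (Measure.measure_pos_of_nonempty_interior _ hKi).ne'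
  -- base
  set B' : Set (ℝ × ℝ) := plane b ⁻¹' B with hB'
  have hBim : plane b '' B' = B := by
    apply Subset.antisymm (image_preimage_subset _ _)
    intro x hx
    have hx2 : b.repr x 2 = 0 := by rw [← hin]; exact hB x hx
    have hxe : plane b (b.repr x 0, b.repr x 1) = x := by
      have := repr_combo b x
      rw [hx2, zero_smul, add_zero] at this
      exact this.symm
    exact ⟨_, by rw [mem_preimage, hxe]; exact hx, hxe⟩
  have hBv : volume B' = μHE[2] B := by rw [← plane_area b, hBim]
  have hsh : shadow u K = plane b '' (Prod.fst '' (coord b '' K)) := by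
    rw [image_image, image_image, shadow]
    apply image_congr
    intro x _
    rw [coord_apply, plane, hin]
    have := repr_combo b x
    rw [hb] at this
    rw [sub_eq_iff_eq_add]
    exact this
  have hshv : volume (Prod.fst '' (coord b '' K)) = μHE[2] (shadow u K) := by
    rw [hsh, plane_area]
  have hcyl : coord b '' (K ∩ cylinder B u) = (coord b '' K) ∩ Prod.fst ⁻¹' B' := by
    ext p
    constructor
    · rintro ⟨x, ⟨hxK, y, hy, t, rfl⟩, rfl⟩
      refine ⟨⟨_, hxK, rfl⟩, ?_⟩
      have hy2 : b.repr y 2 = 0 := by rw [← hin]; exact hB y hy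
      have hye : y = b.repr y 0 • b 0 + b.repr y 1 • b 1 + (0 : ℝ) • b 2 := by
        have := repr_combo b y
        rwa [hy2] at this
      have h2 : y + t • u = b.repr y 0 • b 0 + b.repr y 1 • b 1 + t • b 2 := by
        rw [hb]
        conv_lhs => rw [hye]
        rw [zero_smul, add_zero]
      show plane b (coord b (y + t • u)).1 ∈ B
      rw [coord_apply]
      have e0 : b.repr (y + t • u) 0 = b.repr y 0 := by
        conv_lhs => rw [h2]
        rw [repr_plane]; rfl
      have e1 : b.repr (y + t • u) 1 = b.repr y 1 := by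
        conv_lhs => rw [h2]
        rw [repr_plane]; rfl
      simp only [e0, e1]
      have : plane b (b.repr y 0, b.repr y 1) = y := by
        conv_rhs => rw [hye]
        simp [plane]
      rw [this]
      exact hy
    · rintro ⟨⟨x, hxK, rfl⟩, hx⟩
      refine ⟨x, ⟨hxK, plane b (coord b x).1, hx, b.repr x 2, ?_⟩, rfl⟩
      rw [coord_apply, plane, ← hb]
      exact repr_combo b x
  have hmain := cyl_bound hK' hKc' hV (B := B') (by rw [hBv]; exact hBt) h0 h1
  rw [← hcyl, volume_coord_image, volume_coord_image, hBv, hshv] at hmain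
  exact hmain

end Vale.Agent.Cyl
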