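import Vale.Agent.Cyl.Glue

open MeasureTheory Set
open scoped Pointwise ENNReal

namespace Vale.Agent.Cyl

lemma cylinder_neg (B : Set E3) (u : E3) : cylinder B (-u) = cylinder B u := by
  ext x
  constructor
  · rintro ⟨b, hb, t, rfl⟩
    exact ⟨b, hb, -t, by simp⟩
  · rintro ⟨b, hb, t, rfl⟩
    exact ⟨b, hb, -t, by simp⟩

lemma shadow_neg (K : Set E3) (u : E3) : shadow (-u) K = shadow u K := by
  simp [shadow]

lemma eq_or_neg_of_span {u v : E3} (hu : ‖u‖ = 1) (hv : ‖v‖ = 1)
    (h : Submodule.span ℝ {u} = Submodule.span ℝ {v}) : u = v ∨ u = -v := by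
  have h1 : u ∈ Submodule.span ℝ {v} := by
    rw [← h]; exact Submodule.mem_span_singleton_self u
  obtain ⟨c, hc⟩ := Submodule.mem_span_singleton.1 h1
  have h2 : |c| = 1 := by
    have := congrArg norm hc
    rw [norm_smul, hu, hv, mul_one, Real.norm_eq_abs] at this
    exact this
  rcases abs_eq (by norm_num : (0:ℝ) ≤ 1) |>.1 h2 with h3 | h3
  · left; rw [← hc, h3, one_smul]
  · right; rw [← hc, h3, neg_smul, one_smul]

lemma cylinder_iUnion {ι : Type*} (B : ι → Set E3) (p : ι → Prop) (u : E3) :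
    cylinder (⋃ (i) (_ : p i), B i) u = ⋃ (i) (_ : p i), cylinder (B i) u := by
  ext x
  simp only [cylinder, mem_iUnion, mem_ofPred_eq, exists_prop]
  constructor
  · rintro ⟨b, ⟨i, hi, hb⟩, t, rfl⟩
    exact ⟨i, hi, b, hb, t, rfl⟩
  · rintro ⟨i, hi, b, hb, t, rfl⟩
    exact ⟨b, ⟨i, hi, hb⟩, t, rfl⟩

/-- the basic inequality for a covering with finitely many axis lines -/
theorem cover_bound {K : Set E3} (hK : Convex ℝ K) (hKc : IsCompact K)
    (hKi : (interior K).Nonempty) {m : ℕ} (u : Fin m → E3) (B : Fin m → Set E3)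
    (hu : ∀ i, ‖u i‖ = 1) (hB : ∀ i, ∀ x ∈ B i, inner ℝ (u i) x = 0)
    (hBt : ∀ i, μHE[2] (B i) ≠ ∞) (hcov : K ⊆ ⋃ i, cylinder (B i) (u i))
    {h : ℝ} (h0 : 0 ≤ h) (h1 : h ≤ 1) :
    1 ≤ 3 * (1 - h) * ∑ i, (μHE[2] (B i)).toReal / (μHE[2] (shadow (u i) K)).toReal
      + ((Set.range fun i => Submodule.span ℝ {u i}).ncard : ℝ) * h ^ 3 := by
  classical
  set L : Fin m → Submodule ℝ E3 := fun i => Submodule.span ℝ {u i} with hL
  set T : Finset (Submodule ℝ E3) := Finset.univ.image L with hT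
  have hcard : (Set.range L).ncard = T.card := by
    rw [← Set.ncard_coe_finset, hT, Finset.coe_image, Finset.coe_univ, image_univ]
  -- representative
  have hrep : ∀ l : Submodule ℝ E3, ∃ v : E3, l ∈ T → (‖v‖ = 1 ∧ l = Submodule.span ℝ {v}) := by
    intro l
    by_cases hl : l ∈ T
    · obtain ⟨i, -, hi⟩ := Finset.mem_image.1 hl
      exact ⟨u i, fun _ => ⟨hu i, hi.symm⟩⟩
    · exact ⟨0, fun h => absurd h hl⟩
  choose v hv using hrep
  set C : Submodule ℝ E3 → Set E3 := fun l => ⋃ (i) (_ : L i = l), B i with hC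
  have huv : ∀ i, u i = v (L i) ∨ u i = - v (L i) := by
    intro i
    have hi : L i ∈ T := Finset.mem_image_of_mem _ (Finset.mem_univ i)
    obtain ⟨h1, h2⟩ := hv _ hi
    exact eq_or_neg_of_span (hu i) h1 h2
  have hcyl : ∀ i, cylinder (B i) (u i) = cylinder (B i) (v (L i)) := by
    intro i
    rcases huv i with h | h
    · rw [← h]
    · rw [h, cylinder_neg]
  have hsha : ∀ i, shadow (u i) K = shadow (v (L i)) K := by
    intro i
    rcases huv i with h | h
    · rw [← h]
    · rw [h, shadow_neg]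
  have hort : ∀ i, ∀ x ∈ B i, inner ℝ (v (L i)) x = 0 := by
    intro i x hx
    have := hB i x hx
    rcases huv i with h | h
    · rwa [← h]
    · rw [h, inner_neg_left, neg_eq_zero] at this; exact this
  have hCm : ∀ l, μHE[2] (C l) ≤ ∑ i ∈ Finset.univ.filter (fun i => L i = l), μHE[2] (B i) := by
    intro l
    have : C l = ⋃ i ∈ Finset.univ.filter (fun i => L i = l), B i := by
      simp [hC]
    rw [this]
    exact measure_biUnion_finset_le _ _
  have hCt : ∀ l, μHE[2] (C l) ≠ ∞ := by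
    intro l
    apply ne_top_of_le_ne_top _ (hCm l)
    exact (ENNReal.sum_lt_top.2 fun i _ => (hBt i).lt_top).ne
  have hVt : volume K ≠ ∞ := hKc.measure_lt_top.ne
  have hVpos : 0 < (volume K).toReal :=
    ENNReal.toReal_pos (Measure.measure_pos_of_nonempty_interior _ hKi).ne' hVt
  have hcov2 : K ⊆ ⋃ l ∈ T, (K ∩ cylinder (C l) (v l)) := by
    intro x hx
    obtain ⟨i, hi⟩ := mem_iUnion.1 (hcov hx)
    rw [hcyl i] at hi
    simp only [mem_iUnion, exists_prop]
    refine ⟨L i, Finset.mem_image_of_mem _ (Finset.mem_univ i), hx, ?_⟩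
    rw [hC, cylinder_iUnion]
    simp only [mem_iUnion, exists_prop]
    exact ⟨i, rfl, hi⟩
  have hsum : (volume K).toReal ≤ ∑ l ∈ T, (volume (K ∩ cylinder (C l) (v l))).toReal := by
    have hfin : ∀ l ∈ T, volume (K ∩ cylinder (C l) (v l)) ≠ ∞ := fun l _ =>
      ne_top_of_le_ne_top hVt (measure_mono inter_subset_left)
    rw [← ENNReal.toReal_sum hfin]
    apply ENNReal.toReal_mono ((ENNReal.sum_lt_top.2 fun l hl => (hfin l hl).lt_top).ne)
    exact (measure_mono hcov2).trans (measure_biUnion_finset_le _ _)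
  have hterm : ∀ l ∈ T, (volume (K ∩ cylinder (C l) (v l))).toReal ≤
      (3 * (1 - h) * (∑ i ∈ Finset.univ.filter (fun i => L i = l),
        (μHE[2] (B i)).toReal / (μHE[2] (shadow (u i) K)).toReal) + h ^ 3)
        * (volume K).toReal := by
    intro l hl
    have hb := cylinder_bound hK hKc hKi (hv l hl).1 (B := C l) (by
      intro x hx
      obtain ⟨i, hi, hxi⟩ : ∃ i, L i = l ∧ x ∈ B i := by simpa [hC] using hx
      rw [← hi]; exact hort i x hxi) (hCt l) h0 h1
    refine hb.trans ?_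
    refine mul_le_mul_of_nonneg_right ?_ hVpos.le
    refine add_le_add ?_ le_rfl
    refine mul_le_mul_of_nonneg_left ?_ (by linarith)
    calc (μHE[2] (C l)).toReal / (μHE[2] (shadow (v l) K)).toReal
        ≤ (∑ i ∈ Finset.univ.filter (fun i => L i = l), (μHE[2] (B i)).toReal)
          / (μHE[2] (shadow (v l) K)).toReal := by
          gcongr
          rw [← ENNReal.toReal_sum fun i _ => hBt i]
          exact ENNReal.toReal_mono
            ((ENNReal.sum_lt_top.2 fun i _ => (hBt i).lt_top).ne) (hCm l)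
      _ = _ := by
          rw [Finset.sum_div]
          apply Finset.sum_congr rfl
          intro i hi
          rw [hsha i, (Finset.mem_filter.1 hi).2]
  have hall := hsum.trans (Finset.sum_le_sum hterm)
  rw [← Finset.sum_mul, Finset.sum_add_distrib, ← Finset.mul_sum, Finset.sum_const,
    nsmul_eq_mul] at hall
  have hfib : ∑ l ∈ T, ∑ i ∈ Finset.univ.filter (fun i => L i = l),
        (μHE[2] (B i)).toReal / (μHE[2] (shadow (u i) K)).toReal
      = ∑ i, (μHE[2] (B i)).toReal / (μHE[2] (shadow (u i) K)).toReal := by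
    apply Finset.sum_fiberwise_of_maps_to
    intro i _
    exact Finset.mem_image_of_mem _ (Finset.mem_univ i)
  rw [hfib] at hall
  rw [hcard]
  have := (le_mul_iff_one_le_left hVpos).1 hall
  linarith

end Vale.Agent.Cyl
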