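import Mathlib

open MeasureTheory Set
open scoped Pointwise ENNReal

namespace Vale.Agent.Cyl

/-- volume of a nonempty bounded convex subset of the line -/
lemma volume_convex_real {I : Set ℝ} (hI : Convex ℝ I) (hb : BddBelow I) (ha : BddAbove I) :
    volume I = ENNReal.ofReal (sSup I - sInf I) := by
  apply le_antisymm
  · calc volume I ≤ volume (Icc (sInf I) (sSup I)) :=
        measure_mono (fun x hx => ⟨csInf_le hb hx, le_csSup ha hx⟩)
      _ = _ := Real.volume_Icc
  · rcases I.eq_empty_or_nonempty with rfl | hne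
    · simp
    calc ENNReal.ofReal (sSup I - sInf I) = volume (Ioo (sInf I) (sSup I)) := Real.volume_Ioo.symm
      _ ≤ volume I := by
        apply measure_mono
        intro x hx
        obtain ⟨y, hy, hyx⟩ := exists_lt_of_csInf_lt hne hx.1
        obtain ⟨z, hz, hxz⟩ := exists_lt_of_lt_csSup hne hx.2
        exact hI.ordConnected.out hy hz ⟨hyx.le, hxz.le⟩

/-- one-dimensional Brunn-Minkowski for convex sets -/
lemma volume_combo_real {I J S : Set ℝ} (hI : Convex ℝ I) (hJ : Convex ℝ J)
    (hIn : I.Nonempty) (hJn : J.Nonempty)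
    (hIb : Bornology.IsBounded I) (hJb : Bornology.IsBounded J) {p q : ℝ} (hp : 0 ≤ p) (hq : 0 ≤ q)
    (hS : ∀ x ∈ I, ∀ y ∈ J, p * x + q * y ∈ S) :
    ENNReal.ofReal p * volume I + ENNReal.ofReal q * volume J ≤ volume S := by
  have hI1 := hIb.bddBelow
  have hI2 := hIb.bddAbove
  have hJ1 := hJb.bddBelow
  have hJ2 := hJb.bddAbove
  have hTS : p • I + q • J ⊆ S := by
    rintro _ ⟨_, ⟨x, hx, rfl⟩, _, ⟨y, hy, rfl⟩, rfl⟩
    exact hS x hx y hy
  have hTc : Convex ℝ (p • I + q • J) := (hI.smul p).add (hJ.smul q)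
  have b1 : BddBelow (p • I) := (hIb.smul₀ p).bddBelow
  have b2 : BddAbove (p • I) := (hIb.smul₀ p).bddAbove
  have b3 : BddBelow (q • J) := (hJb.smul₀ q).bddBelow
  have b4 : BddAbove (q • J) := (hJb.smul₀ q).bddAbove
  have e1 : sSup (p • I + q • J) = p * sSup I + q * sSup J := by
    rw [csSup_add hIn.smul_set b2 hJn.smul_set b4, Real.sSup_smul_of_nonneg hp,
      Real.sSup_smul_of_nonneg hq]; rfl
  have e2 : sInf (p • I + q • J) = p * sInf I + q * sInf J := by
    rw [csInf_add hIn.smul_set b1 hJn.smul_set b3, Real.sInf_smul_of_nonneg hp,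
      Real.sInf_smul_of_nonneg hq]; rfl
  have hIle : sInf I ≤ sSup I := Real.sInf_le_sSup I hI1 hI2
  have hJle : sInf J ≤ sSup J := Real.sInf_le_sSup J hJ1 hJ2
  calc ENNReal.ofReal p * volume I + ENNReal.ofReal q * volume J
      = ENNReal.ofReal (sSup (p • I + q • J) - sInf (p • I + q • J)) := by
        rw [volume_convex_real hI hI1 hI2, volume_convex_real hJ hJ1 hJ2, e1, e2,
          ← ENNReal.ofReal_mul hp, ← ENNReal.ofReal_mul hq, ← ENNReal.ofReal_add]
        · congr 1; ring
        · exact mul_nonneg hp (by linarith)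
        · exact mul_nonneg hq (by linarith)
    _ = volume (p • I + q • J) :=
        (volume_convex_real hTc (b1.add b3) (b2.add b4)).symm
    _ ≤ volume S := measure_mono hTS

end Vale.Agent.Cyl
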