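import Vale.Agent.Cyl.OneDim

open MeasureTheory Set
open scoped Pointwise ENNReal

namespace Vale.Agent.Cyl

/-- length of the vertical section of a planar set -/
noncomputable def sec (A : Set (ℝ × ℝ)) (x : ℝ) : ℝ := (volume (Prod.mk x ⁻¹' A)).toReal

lemma section_lt_top {A : Set (ℝ × ℝ)} (hA : IsCompact A) (x : ℝ) :
    volume (Prod.mk x ⁻¹' A) < ∞ := by
  apply lt_of_le_of_lt (measure_mono _) (hA.image continuous_snd).measure_lt_top
  intro y hy
  exact ⟨(x, y), hy, rfl⟩

lemma section_bounded {A : Set (ℝ × ℝ)} (hA : IsCompact A) (x : ℝ) :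
    Bornology.IsBounded (Prod.mk x ⁻¹' A) := by
  apply (hA.image continuous_snd).isBounded.subset
  intro y hy
  exact ⟨(x, y), hy, rfl⟩

lemma section_convex {A : Set (ℝ × ℝ)} (hA : Convex ℝ A) (x : ℝ) :
    Convex ℝ (Prod.mk x ⁻¹' A) := by
  intro y hy z hz s t hs ht hst
  have := hA hy hz hs ht hst
  simpa [← add_mul, hst] using this

lemma sec_nonneg (A : Set (ℝ × ℝ)) (x : ℝ) : 0 ≤ sec A x := ENNReal.toReal_nonneg

lemma sec_le {A : Set (ℝ × ℝ)} (hA : IsCompact A) (x : ℝ) :
    sec A x ≤ (volume (Prod.snd '' A)).toReal := by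
  apply ENNReal.toReal_mono (hA.image continuous_snd).measure_lt_top.ne
  apply measure_mono
  intro y hy
  exact ⟨(x, y), hy, rfl⟩

lemma sec_bddAbove {A : Set (ℝ × ℝ)} (hA : IsCompact A) : BddAbove (range (sec A)) :=
  ⟨_, by rintro _ ⟨x, rfl⟩; exact sec_le hA x⟩

lemma sec_measurable {A : Set (ℝ × ℝ)} (hA : IsCompact A) : Measurable (sec A) :=
  (measurable_measure_prodMk_left hA.isClosed.measurableSet).ennreal_toReal

lemma volume_eq_sec {A : Set (ℝ × ℝ)} (hA : IsCompact A) :
    volume A = ∫⁻ x, ENNReal.ofReal (sec A x) := by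
  rw [Measure.volume_eq_prod, Measure.prod_apply hA.isClosed.measurableSet]
  congr with x
  rw [sec, ENNReal.ofReal_toReal (section_lt_top hA x).ne]

lemma sec_pos_nonempty {A : Set (ℝ × ℝ)} {x : ℝ} (h : 0 < sec A x) :
    (Prod.mk x ⁻¹' A).Nonempty := by
  by_contra hne
  rw [not_nonempty_iff_eq_empty] at hne
  simp [sec, hne] at h

/-- combination inequality for section lengths -/
lemma sec_combo {A B C : Set (ℝ × ℝ)} (hA : Convex ℝ A) (hB : Convex ℝ B)
    (hAc : IsCompact A) (hBc : IsCompact B) (hCc : IsCompact C)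
    {p q : ℝ} (hp : 0 ≤ p) (hq : 0 ≤ q)
    (hC : ∀ x ∈ A, ∀ y ∈ B, p • x + q • y ∈ C) {x y : ℝ}
    (hx : (Prod.mk x ⁻¹' A).Nonempty) (hy : (Prod.mk y ⁻¹' B).Nonempty) :
    p * sec A x + q * sec B y ≤ sec C (p * x + q * y) := by
  have h := volume_combo_real (S := Prod.mk (p * x + q * y) ⁻¹' C) (section_convex hA x)
    (section_convex hB y) hx hy (section_bounded hAc x) (section_bounded hBc y) hp hq
    (by
      intro s hs t ht
      have := hC _ hs _ ht
      simpa using this)
  have h2 := ENNReal.toReal_mono (section_lt_top hCc (p * x + q * y)).ne h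
  rw [ENNReal.toReal_add, ENNReal.toReal_mul, ENNReal.toReal_mul, ENNReal.toReal_ofReal hp,
    ENNReal.toReal_ofReal hq] at h2
  · exact h2
  · exact ENNReal.mul_ne_top ENNReal.ofReal_ne_top (section_lt_top hAc x).ne
  · exact ENNReal.mul_ne_top ENNReal.ofReal_ne_top (section_lt_top hBc y).ne

lemma level_convex {A : Set (ℝ × ℝ)} (hA : Convex ℝ A) (hAc : IsCompact A) {t : ℝ} (ht : 0 ≤ t) :
    Convex ℝ {x | t < sec A x} := by
  intro x hx y hy s r hs hr hsr
  simp only [mem_ofPred_eq] at hx hy ⊢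
  have h := sec_combo hA hA hAc hAc hAc hs hr (fun u hu v hv => hA hu hv hs hr hsr)
    (sec_pos_nonempty (lt_of_le_of_lt ht hx)) (sec_pos_nonempty (lt_of_le_of_lt ht hy))
  refine lt_of_lt_of_le ?_ (by simpa using h)
  rcases hs.eq_or_lt with rfl | hs'
  · have : r = 1 := by linarith
    subst this; simpa using hy
  · have h1 : s * t < s * sec A x := mul_lt_mul_of_pos_left hx hs'
    have h2 : r * t ≤ r * sec A y := mul_le_mul_of_nonneg_left hy.le hr
    have h3 : s * t + r * t = t := by rw [← add_mul, hsr, one_mul]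
    linarith

lemma level_bounded {A : Set (ℝ × ℝ)} (hAc : IsCompact A) {t : ℝ} (ht : 0 ≤ t) :
    Bornology.IsBounded {x | t < sec A x} := by
  apply (hAc.image continuous_fst).isBounded.subset
  intro x hx
  obtain ⟨y, hy⟩ := sec_pos_nonempty (lt_of_le_of_lt ht hx)
  exact ⟨(x, y), hy, rfl⟩

/-- normalised layer cake: if `0 < α` is an upper bound of the section lengths -/
lemma layer {A : Set (ℝ × ℝ)} (hAc : IsCompact A) {α : ℝ} (hα : 0 < α) :
    ENNReal.ofReal α⁻¹ * volume A = ∫⁻ t in Ioi (0 : ℝ), volume {x | t * α < sec A x} := by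
  rw [volume_eq_sec hAc, ← lintegral_const_mul' _ _ ENNReal.ofReal_ne_top]
  have h1 : ∀ x, ENNReal.ofReal α⁻¹ * ENNReal.ofReal (sec A x) = ENNReal.ofReal (sec A x / α) := by
    intro x
    rw [← ENNReal.ofReal_mul (inv_nonneg.2 hα.le), div_eq_inv_mul]
  simp_rw [h1]
  rw [lintegral_eq_lintegral_meas_lt]
  · refine lintegral_congr fun t => ?_
    congr 1
    ext x
    simp only [mem_ofPred_eq]
    rw [lt_div_iff₀ hα]
  · exact Filter.Eventually.of_forall fun x => div_nonneg (sec_nonneg _ _) hα.le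
  · exact ((sec_measurable hAc).div_const α).aemeasurable

lemma layer_le {A : Set (ℝ × ℝ)} (hAc : IsCompact A) {α : ℝ} (hα : 0 < α)
    (hb : ∀ x, sec A x ≤ α) :
    ENNReal.ofReal α⁻¹ * volume A = ∫⁻ t in Ioo (0 : ℝ) 1, volume {x | t * α < sec A x} := by
  rw [layer hAc hα]
  symm
  rw [← lintegral_indicator measurableSet_Ioo, ← lintegral_indicator measurableSet_Ioi]
  refine lintegral_congr fun t => ?_
  by_cases h0 : 0 < t
  · by_cases h1 : t < 1
    · simp [h0, h1]
    · have : {x | t * α < sec A x} = ∅ := by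
        ext x
        simp only [mem_ofPred_eq, mem_empty_iff_false, iff_false, not_lt]
        have : α ≤ t * α := by nlinarith
        exact (hb x).trans this
      simp [h0, h1, this]
  · simp [h0]

lemma cauchy_aux {p q α β a b : ℝ} (hp : 0 ≤ p) (hq : 0 ≤ q) (hα : 0 < α) (hβ : 0 < β)
    (ha : 0 ≤ a) (hb : 0 ≤ b) :
    (p * √a + q * √b) ^ 2 ≤ (p * α + q * β) * (p * (α⁻¹ * a) + q * (β⁻¹ * b)) := by
  obtain ⟨x, hx, rfl⟩ : ∃ x, 0 ≤ x ∧ a = x ^ 2 := ⟨√a, Real.sqrt_nonneg _, (Real.sq_sqrt ha).symm⟩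
  obtain ⟨y, hy, rfl⟩ : ∃ x, 0 ≤ x ∧ b = x ^ 2 := ⟨√b, Real.sqrt_nonneg _, (Real.sq_sqrt hb).symm⟩
  rw [Real.sqrt_sq hx, Real.sqrt_sq hy]
  have key : 0 ≤ p * q * (β * x - α * y) ^ 2 / (α * β) := by positivity
  have : (p * α + q * β) * (p * (α⁻¹ * x ^ 2) + q * (β⁻¹ * y ^ 2)) - (p * x + q * y) ^ 2
      = p * q * (β * x - α * y) ^ 2 / (α * β) := by
    field_simp
    ring
  linarith

lemma volume_ge_of_translate {B C : Set (ℝ × ℝ)} {q : ℝ} (v : ℝ × ℝ)
    (h : ∀ y ∈ B, v + q • y ∈ C) : ENNReal.ofReal (q ^ 2) * volume B ≤ volume C := by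
  have h1 : v +ᵥ (q • B) ⊆ C := by
    rintro _ ⟨_, ⟨y, hy, rfl⟩, rfl⟩
    exact h y hy
  calc ENNReal.ofReal (q ^ 2) * volume B = volume (v +ᵥ (q • B)) := by
        rw [measure_vadd, Measure.addHaar_smul]
        congr 2
        simp
    _ ≤ volume C := measure_mono h1

/-- planar Brunn-Minkowski inequality for compact convex sets -/
theorem brunn_minkowski_plane {A B C : Set (ℝ × ℝ)} (hA : Convex ℝ A) (hB : Convex ℝ B)
    (hAc : IsCompact A) (hBc : IsCompact B) (hCc : IsCompact C)
    (hAn : A.Nonempty) (hBn : B.Nonempty) {p q : ℝ} (hp : 0 ≤ p) (hq : 0 ≤ q)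
    (hC : ∀ x ∈ A, ∀ y ∈ B, p • x + q • y ∈ C) :
    (p * √(volume A).toReal + q * √(volume B).toReal) ^ 2 ≤ (volume C).toReal := by
  have hCt : volume C ≠ ∞ := hCc.measure_lt_top.ne
  have hAt : volume A ≠ ∞ := hAc.measure_lt_top.ne
  have hBt : volume B ≠ ∞ := hBc.measure_lt_top.ne
  -- degenerate cases
  by_cases hVA : volume A = 0
  · obtain ⟨x, hx⟩ := hAn
    have h := volume_ge_of_translate (q := q) (p • x) (fun y hy => hC x hx y hy)
    have h2 := ENNReal.toReal_mono hCt h
    rw [ENNReal.toReal_mul, ENNReal.toReal_ofReal (sq_nonneg q)] at h2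
    simp only [hVA, ENNReal.toReal_zero, Real.sqrt_zero, mul_zero, zero_add]
    rw [mul_pow, Real.sq_sqrt ENNReal.toReal_nonneg]
    exact h2
  by_cases hVB : volume B = 0
  · obtain ⟨y, hy⟩ := hBn
    have h := volume_ge_of_translate (q := p) (q • y) (B := A) (C := C)
      (fun x hx => by rw [add_comm]; exact hC x hx y hy)
    have h2 := ENNReal.toReal_mono hCt h
    rw [ENNReal.toReal_mul, ENNReal.toReal_ofReal (sq_nonneg p)] at h2
    simp only [hVB, ENNReal.toReal_zero, Real.sqrt_zero, mul_zero, add_zero]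
    rw [mul_pow, Real.sq_sqrt ENNReal.toReal_nonneg]
    exact h2
  by_cases hpq : p = 0 ∧ q = 0
  · obtain ⟨rfl, rfl⟩ := hpq
    simp
  -- suprema
  set α := sSup (range (sec A)) with hαdef
  set β := sSup (range (sec B)) with hβdef
  have hαb : ∀ x, sec A x ≤ α := fun x => le_csSup (sec_bddAbove hAc) ⟨x, rfl⟩
  have hβb : ∀ x, sec B x ≤ β := fun x => le_csSup (sec_bddAbove hBc) ⟨x, rfl⟩
  have hα : 0 < α := by
    by_contra hcon
    apply hVA
    rw [volume_eq_sec hAc]
    have : ∀ x, sec A x = 0 := fun x =>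
      le_antisymm ((hαb x).trans (not_lt.1 hcon)) (sec_nonneg _ _)
    simp [this]
  have hβ : 0 < β := by
    by_contra hcon
    apply hVB
    rw [volume_eq_sec hBc]
    have : ∀ x, sec B x = 0 := fun x =>
      le_antisymm ((hβb x).trans (not_lt.1 hcon)) (sec_nonneg _ _)
    simp [this]
  set M := p * α + q * β with hMdef
  have hM : 0 < M := by
    rcases hp.eq_or_lt with rfl | hp'
    · have : 0 < q := lt_of_le_of_ne hq (fun h => hpq ⟨rfl, h.symm⟩)
      positivity
    · positivity
  have key : ENNReal.ofReal p * (ENNReal.ofReal α⁻¹ * volume A)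
      + ENNReal.ofReal q * (ENNReal.ofReal β⁻¹ * volume B) ≤ ENNReal.ofReal M⁻¹ * volume C := by
    rw [layer_le hAc hα hαb, layer_le hBc hβ hβb, layer hCc hM,
      ← lintegral_const_mul' _ _ ENNReal.ofReal_ne_top,
      ← lintegral_const_mul' _ _ ENNReal.ofReal_ne_top, ← lintegral_add_left']
    · calc _ ≤ ∫⁻ t in Ioo (0 : ℝ) 1, volume {x | t * M < sec C x} := by
            apply setLIntegral_mono' measurableSet_Ioo
            intro t ht
            have ht0 : 0 < t := ht.1
            have ht1 : t < 1 := ht.2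
            obtain ⟨_, ⟨x0, rfl⟩, hx0⟩ := exists_lt_of_lt_csSup (range_nonempty (sec A))
              (show t * α < sSup (range (sec A)) by rw [← hαdef]; nlinarith)
            obtain ⟨_, ⟨y0, rfl⟩, hy0⟩ := exists_lt_of_lt_csSup (range_nonempty (sec B))
              (show t * β < sSup (range (sec B)) by rw [← hβdef]; nlinarith)
            apply volume_combo_real (level_convex hA hAc (by positivity))
              (level_convex hB hBc (by positivity)) ⟨x0, hx0⟩ ⟨y0, hy0⟩
              (level_bounded hAc (by positivity)) (level_bounded hBc (by positivity)) hp hq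
            intro x hx y hy
            simp only [mem_ofPred_eq] at hx hy ⊢
            have hxp : 0 < sec A x := lt_trans (by positivity) hx
            have hyp : 0 < sec B y := lt_trans (by positivity) hy
            have h := sec_combo hA hB hAc hBc hCc hp hq hC (sec_pos_nonempty hxp)
              (sec_pos_nonempty hyp)
            refine lt_of_lt_of_le ?_ h
            rw [hMdef]
            rcases hp.eq_or_lt with rfl | hp'
            · have hq' : 0 < q := lt_of_le_of_ne hq (fun h => hpq ⟨rfl, h.symm⟩)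
              have := mul_lt_mul_of_pos_left hy hq'
              nlinarith
            · have h1 := mul_lt_mul_of_pos_left hx hp'
              have h2 := mul_le_mul_of_nonneg_left hy.le hq
              nlinarith
        _ ≤ _ := lintegral_mono_set (fun t ht => ht.1)
    · apply AEMeasurable.const_mul
      apply Measurable.aemeasurable
      apply Antitone.measurable
      intro s t hst
      apply measure_mono
      intro x hx
      simp only [mem_ofPred_eq] at hx ⊢
      have : s * α ≤ t * α := mul_le_mul_of_nonneg_right hst hα.le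
      linarith
  have key2 := ENNReal.toReal_mono (ENNReal.mul_ne_top ENNReal.ofReal_ne_top hCt) key
  rw [ENNReal.toReal_add, ENNReal.toReal_mul, ENNReal.toReal_mul, ENNReal.toReal_mul,
    ENNReal.toReal_mul, ENNReal.toReal_mul, ENNReal.toReal_ofReal hp, ENNReal.toReal_ofReal hq,
    ENNReal.toReal_ofReal (inv_nonneg.2 hα.le), ENNReal.toReal_ofReal (inv_nonneg.2 hβ.le),
    ENNReal.toReal_ofReal (inv_nonneg.2 hM.le)] at key2
  · have h3 := cauchy_aux hp hq hα hβ (a := (volume A).toReal) (b := (volume B).toReal)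
      ENNReal.toReal_nonneg ENNReal.toReal_nonneg
    refine h3.trans ?_
    rw [← hMdef]
    calc M * (p * (α⁻¹ * (volume A).toReal) + q * (β⁻¹ * (volume B).toReal))
        ≤ M * (M⁻¹ * (volume C).toReal) := mul_le_mul_of_nonneg_left key2 hM.le
      _ = (volume C).toReal := by field_simp
  · exact ENNReal.mul_ne_top ENNReal.ofReal_ne_top
      (ENNReal.mul_ne_top ENNReal.ofReal_ne_top hAt)
  · exact ENNReal.mul_ne_top ENNReal.ofReal_ne_top
      (ENNReal.mul_ne_top ENNReal.ofReal_ne_top hBt)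

end Vale.Agent.Cyl
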