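import Vale.Agent.Cyl.Plane

open MeasureTheory Set
open scoped Pointwise ENNReal

namespace Vale.Agent.Cyl

/-- base points whose vertical chord in `K` has length at least `t` -/
def lev (K : Set ((ℝ × ℝ) × ℝ)) (t : ℝ) : Set (ℝ × ℝ) :=
  (fun p : ((ℝ × ℝ) × ℝ) × ((ℝ × ℝ) × ℝ) => p.1.1) ''
    ((K ×ˢ K) ∩ {p | p.1.1 = p.2.1 ∧ t ≤ p.2.2 - p.1.2})

lemma mem_lev {K : Set ((ℝ × ℝ) × ℝ)} {t : ℝ} {y : ℝ × ℝ} :
    y ∈ lev K t ↔ ∃ a b : ℝ, (y, a) ∈ K ∧ (y, b) ∈ K ∧ t ≤ b - a := by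
  constructor
  · rintro ⟨⟨⟨y1, a⟩, ⟨y2, b⟩⟩, ⟨⟨h1, h2⟩, h3, h4⟩, rfl⟩
    simp only at h1 h2 h3 h4 ⊢
    subst h3
    exact ⟨a, b, h1, h2, h4⟩
  · rintro ⟨a, b, h1, h2, h3⟩
    exact ⟨((y, a), (y, b)), ⟨⟨h1, h2⟩, rfl, h3⟩, rfl⟩

lemma lev_compact {K : Set ((ℝ × ℝ) × ℝ)} (hK : IsCompact K) (t : ℝ) : IsCompact (lev K t) := by
  apply IsCompact.image
  · apply (hK.prod hK).inter_right
    have h1 : IsClosed {p : ((ℝ × ℝ) × ℝ) × ((ℝ × ℝ) × ℝ) | p.1.1 = p.2.1} :=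
      isClosed_eq (by fun_prop) (by fun_prop)
    have h2 : IsClosed {p : ((ℝ × ℝ) × ℝ) × ((ℝ × ℝ) × ℝ) | t ≤ p.2.2 - p.1.2} :=
      isClosed_le (by fun_prop) (by fun_prop)
    exact h1.inter h2
  · fun_prop

lemma lev_combo {K : Set ((ℝ × ℝ) × ℝ)} (hK : Convex ℝ K) {s t p q : ℝ} (hp : 0 ≤ p) (hq : 0 ≤ q)
    (hpq : p + q = 1) {x y : ℝ × ℝ} (hx : x ∈ lev K s) (hy : y ∈ lev K t) :
    p • x + q • y ∈ lev K (p * s + q * t) := by
  rw [mem_lev] at hx hy ⊢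
  obtain ⟨a, b, h1, h2, h3⟩ := hx
  obtain ⟨c, d, h4, h5, h6⟩ := hy
  refine ⟨p * a + q * c, p * b + q * d, ?_, ?_, ?_⟩
  · exact hK h1 h4 hp hq hpq
  · exact hK h2 h5 hp hq hpq
  · nlinarith [mul_le_mul_of_nonneg_left h3 hp, mul_le_mul_of_nonneg_left h6 hq]

lemma lev_convex {K : Set ((ℝ × ℝ) × ℝ)} (hK : Convex ℝ K) (t : ℝ) : Convex ℝ (lev K t) := by
  intro x hx y hy p q hp hq hpq
  have := lev_combo hK hp hq hpq hx hy
  rwa [← add_mul, hpq, one_mul] at this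

lemma lev_zero {K : Set ((ℝ × ℝ) × ℝ)} : lev K 0 = Prod.fst '' K := by
  ext y
  rw [mem_lev]
  constructor
  · rintro ⟨a, b, h1, -, -⟩
    exact ⟨_, h1, rfl⟩
  · rintro ⟨⟨y, a⟩, h1, rfl⟩
    exact ⟨a, a, h1, h1, by simp⟩

lemma lev_anti {K : Set ((ℝ × ℝ) × ℝ)} {s t : ℝ} (h : s ≤ t) : lev K t ⊆ lev K s := by
  intro y hy
  rw [mem_lev] at hy ⊢
  obtain ⟨a, b, h1, h2, h3⟩ := hy
  exact ⟨a, b, h1, h2, h.trans h3⟩

/-- chord length -/
noncomputable def chord (K : Set ((ℝ × ℝ) × ℝ)) (y : ℝ × ℝ) : ℝ :=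
  (volume (Prod.mk y ⁻¹' K)).toReal

lemma slice_compact {K : Set ((ℝ × ℝ) × ℝ)} (hK : IsCompact K) (y : ℝ × ℝ) :
    IsCompact (Prod.mk y ⁻¹' K) := by
  have hcl : IsClosed (Prod.mk y ⁻¹' K) := hK.isClosed.preimage (by fun_prop)
  refine (hK.image continuous_snd).of_isClosed_subset hcl ?_
  intro t ht
  exact ⟨(y, t), ht, rfl⟩

lemma slice_convex {K : Set ((ℝ × ℝ) × ℝ)} (hK : Convex ℝ K) (y : ℝ × ℝ) :
    Convex ℝ (Prod.mk y ⁻¹' K) := by
  intro a ha b hb s t hs ht hst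
  have := hK ha hb hs ht hst
  have h2 : s • ((y, a) : (ℝ × ℝ) × ℝ) + t • (y, b) = (y, s • a + t • b) := by
    ext <;> simp [← add_mul, hst]
  rw [h2] at this
  exact this

lemma le_chord_iff {K : Set ((ℝ × ℝ) × ℝ)} (hK : Convex ℝ K) (hKc : IsCompact K) {t : ℝ}
    (ht : 0 < t) (y : ℝ × ℝ) : t ≤ chord K y ↔ y ∈ lev K t := by
  have hc := slice_compact hKc y
  have hv := slice_convex hK y
  rw [mem_lev]
  constructor
  · intro h
    have hne : (Prod.mk y ⁻¹' K).Nonempty := by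
      by_contra hne
      rw [not_nonempty_iff_eq_empty] at hne
      simp only [chord, hne, measure_empty, ENNReal.toReal_zero] at h
      linarith
    refine ⟨sInf (Prod.mk y ⁻¹' K), sSup (Prod.mk y ⁻¹' K), hc.sInf_mem hne, hc.sSup_mem hne, ?_⟩
    rw [chord, volume_convex_real hv hc.bddBelow hc.bddAbove, ENNReal.toReal_ofReal] at h
    · exact h
    · linarith [Real.sInf_le_sSup _ hc.bddBelow hc.bddAbove]
  · rintro ⟨a, b, h1, h2, h3⟩
    have h4 : Icc a b ⊆ Prod.mk y ⁻¹' K := hv.ordConnected.out h1 h2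
    calc t ≤ b - a := h3
      _ = (volume (Icc a b)).toReal := by
        rw [Real.volume_Icc, ENNReal.toReal_ofReal (by linarith)]
      _ ≤ chord K y := ENNReal.toReal_mono hc.measure_lt_top.ne (measure_mono h4)

lemma chord_measurable {K : Set ((ℝ × ℝ) × ℝ)} (hKc : IsCompact K) : Measurable (chord K) :=
  (measurable_measure_prodMk_left hKc.isClosed.measurableSet).ennreal_toReal

/-- volume of the part of `K` above a measurable base -/
lemma volume_part {K : Set ((ℝ × ℝ) × ℝ)} (hK : Convex ℝ K) (hKc : IsCompact K)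
    {B : Set (ℝ × ℝ)} (hB : MeasurableSet B) :
    volume (K ∩ Prod.fst ⁻¹' B) = ∫⁻ t in Ioi (0 : ℝ), volume (lev K t ∩ B) := by
  rw [Measure.volume_eq_prod, Measure.prod_apply
    (hKc.isClosed.measurableSet.inter (hB.preimage measurable_fst))]
  have h1 : ∀ y, volume (Prod.mk y ⁻¹' (K ∩ Prod.fst ⁻¹' B))
      = B.indicator (fun y => ENNReal.ofReal (chord K y)) y := by
    intro y
    by_cases hy : y ∈ B
    · rw [indicator_of_mem hy, chord, ENNReal.ofReal_toReal (slice_compact hKc y).measure_lt_top.ne]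
      congr 1
      ext t
      simp [hy]
    · rw [indicator_of_notMem hy]
      have : Prod.mk y ⁻¹' (K ∩ Prod.fst ⁻¹' B) = ∅ := by
        ext t
        simp [hy]
      rw [this, measure_empty]
  simp_rw [h1]
  rw [lintegral_indicator hB, lintegral_eq_lintegral_meas_le]
  · apply setLIntegral_congr_fun measurableSet_Ioi
    intro t ht
    simp only
    rw [Measure.restrict_apply (measurableSet_le measurable_const (chord_measurable hKc))]
    congr 1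
    ext y
    simp only [mem_inter_iff, mem_ofPred_eq]
    rw [le_chord_iff hK hKc ht]
  · exact Filter.Eventually.of_forall fun y => ENNReal.toReal_nonneg
  · exact (chord_measurable hKc).aemeasurable

lemma volume_total {K : Set ((ℝ × ℝ) × ℝ)} (hK : Convex ℝ K) (hKc : IsCompact K) :
    volume K = ∫⁻ t in Ioi (0 : ℝ), volume (lev K t) := by
  have := volume_part hK hKc MeasurableSet.univ
  simpa using this

end Vale.Agent.Cyl
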